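import Mathlib

/-!
Real-variable part: the fixed point equations of the composed twist maps on `S² × S²`.
-/

set_option autoImplicit false

namespace Crest.Agent.R205

open Real

/-- `κ y = ε / (1 + ε² y²)` with `ε = 1/4`, the derivative of `arctan (y/4)`. -/
noncomputable def kap (y : ℝ) : ℝ := (1 / 4) / (1 + (y / 4) ^ 2)

lemma kap_pos (y : ℝ) : 0 < kap y := by unfold kap; positivity

lemma kap_le (y : ℝ) : kap y ≤ 1 / 4 := by
  unfold kap
  rw [div_le_iff₀ (by positivity)]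
  nlinarith [sq_nonneg (y / 4)]

lemma kap_lt_kap {x y : ℝ} (h : x ^ 2 < y ^ 2) : kap y < kap x := by
  unfold kap
  apply div_lt_div_of_pos_left (by norm_num) (by positivity)
  nlinarith

lemma kap_eq_of_sq {x y : ℝ} (h : x ^ 2 = y ^ 2) : kap x = kap y := by
  unfold kap
  rw [div_pow, div_pow, h]

lemma cos_ge_of_le_half {x : ℝ} (h0 : 0 ≤ x) (h1 : x ≤ 1 / 2) : 7 / 8 ≤ cos x := by
  have := Real.one_sub_sq_div_two_le_cos (x := x)
  nlinarith

lemma half_lt_pi_div_two : (1 / 2 : ℝ) < π / 2 := by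
  have := Real.pi_gt_three
  linarith

lemma tan_le_of_le_half {x : ℝ} (h0 : 0 ≤ x) (h1 : x ≤ 1 / 2) : tan x ≤ 8 / 7 * x := by
  have hc := cos_ge_of_le_half h0 h1
  have hs : sin x ≤ x := Real.sin_le h0
  rw [Real.tan_eq_sin_div_cos, div_le_iff₀ (by linarith)]
  nlinarith

lemma le_tan_of_le_half {x : ℝ} (h0 : 0 ≤ x) (h1 : x ≤ 1 / 2) : x ≤ tan x :=
  Real.le_tan h0 (lt_of_le_of_lt h1 half_lt_pi_div_two)

lemma tan_lt_tan_of_le_half {x y : ℝ} (h0 : 0 ≤ x) (hxy : x < y) (h1 : y ≤ 1 / 2) :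
    tan x < tan y :=
  Real.tan_lt_tan_of_nonneg_of_lt_pi_div_two h0 (lt_of_le_of_lt h1 half_lt_pi_div_two) hxy

lemma tan_sub_le {x y : ℝ} (h0 : 0 ≤ x) (hxy : x ≤ y) (h1 : y ≤ 1 / 2) :
    tan y - tan x ≤ 2 * (y - x) := by
  have hcx := cos_ge_of_le_half h0 (hxy.trans h1)
  have hcy := cos_ge_of_le_half (h0.trans hxy) h1
  have hs : sin (y - x) ≤ y - x := Real.sin_le (by linarith)
  have e : tan y - tan x = sin (y - x) / (cos x * cos y) := by
    rw [Real.tan_eq_sin_div_cos, Real.tan_eq_sin_div_cos, Real.sin_sub]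
    have : cos x ≠ 0 := by linarith
    have : cos y ≠ 0 := by linarith
    field_simp
  rw [e, div_le_iff₀ (by positivity)]
  have : 1 / 2 ≤ cos x * cos y := by nlinarith
  nlinarith

/-- the angle `(1 - x) κ(y)` lies in `[0, 1/2]` when `|x| ≤ 1`. -/
lemma ang_nonneg {x : ℝ} (y : ℝ) (hx : x ≤ 1) : 0 ≤ (1 - x) * kap y :=
  mul_nonneg (by linarith) (kap_pos y).le

lemma ang_le {x : ℝ} (y : ℝ) (hx : -1 ≤ x) : (1 - x) * kap y ≤ 1 / 2 := by
  have := kap_pos y
  have := kap_le y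
  nlinarith

lemma eq_one_of_tan_eq_zero {x y : ℝ} (h1 : -1 ≤ x) (h2 : x ≤ 1)
    (h : tan ((1 - x) * kap y) = 0) : x = 1 := by
  have h3 := le_tan_of_le_half (ang_nonneg y h2) (ang_le y h1)
  have h4 := kap_pos y
  rw [h] at h3
  have : 1 - x ≤ 0 := by
    by_contra hc
    push Not at hc
    have := mul_pos hc h4
    linarith
  linarith

/-- monotonicity: `tan (k (1+x)) / x` is antitone. -/
lemma mono_aux {k m n : ℝ} (hk0 : 0 < k) (hk : k ≤ 1 / 4) (hn : 0 < n) (hnm : n < m) (hm : m ≤ 1) :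
    n * tan ((1 + m) * k) ≤ m * tan ((1 + n) * k) := by
  have h1 : tan ((1 + m) * k) - tan ((1 + n) * k) ≤ 2 * ((1 + m) * k - (1 + n) * k) :=
    tan_sub_le (by positivity) (by nlinarith) (by nlinarith)
  have h2 : (1 + n) * k ≤ tan ((1 + n) * k) := le_tan_of_le_half (by positivity) (by nlinarith)
  have h3 : n * (tan ((1 + m) * k) - tan ((1 + n) * k)) ≤ n * (2 * ((m - n) * k)) := by
    apply mul_le_mul_of_nonneg_left _ hn.le
    linarith
  have h4 : (m - n) * ((1 + n) * k) ≤ (m - n) * tan ((1 + n) * k) :=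
    mul_le_mul_of_nonneg_left h2 (by linarith)
  have h5 : n * (2 * ((m - n) * k)) ≤ (m - n) * ((1 + n) * k) := by
    have : 0 ≤ (m - n) * k := by
      apply mul_nonneg <;> linarith
    nlinarith
  nlinarith

/-- The reduced system. -/
def Sys (m s : ℝ) : Prop :=
  0 < m ∧ m ≤ 1 ∧ 0 < s ∧ m ^ 2 + s ^ 2 + (s ^ 2 / 4) ^ 2 = 1 ∧ m * tan ((1 + m) * kap s) = s ^ 2 / 4

lemma sys_unique_aux {m s m' s' : ℝ} (h : Sys m s) (h' : Sys m' s') : ¬ m' < m := by
  obtain ⟨hm, hm1, hs, e1, e2⟩ := h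
  obtain ⟨hm', hm1', hs', e1', e2'⟩ := h'
  intro hlt
  have hss : s ^ 2 < s' ^ 2 := by
    by_contra hc
    push Not at hc
    have : (s' ^ 2 / 4) ^ 2 ≤ (s ^ 2 / 4) ^ 2 := by
      apply pow_le_pow_left₀ (by positivity)
      linarith
    nlinarith
  have hk := kap_lt_kap hss
  have hk' := kap_pos s'
  have hk1 := kap_le s
  have ht : tan ((1 + m') * kap s') < tan ((1 + m) * kap s) :=
    tan_lt_tan_of_le_half (by positivity) (by nlinarith) (by nlinarith)
  have ht0 : 0 ≤ tan ((1 + m') * kap s') := by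
    have := le_tan_of_le_half (x := (1 + m') * kap s') (by positivity) (by nlinarith)
    have : 0 ≤ (1 + m') * kap s' := by positivity
    linarith
  nlinarith

lemma sys_unique {m s m' s' : ℝ} (h : Sys m s) (h' : Sys m' s') : m = m' ∧ s = s' := by
  have h1 := sys_unique_aux h h'
  have h2 := sys_unique_aux h' h
  have hm : m = m' := le_antisymm (not_lt.mp h1) (not_lt.mp h2)
  subst hm
  obtain ⟨hm, hm1, hs, e1, e2⟩ := h
  obtain ⟨hm', hm1', hs', e1', e2'⟩ := h'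
  refine ⟨rfl, ?_⟩
  have : (s ^ 2 - s' ^ 2) * (1 + (s ^ 2 + s' ^ 2) / 16) = 0 := by nlinarith
  have h3 : s ^ 2 - s' ^ 2 = 0 := by
    rcases mul_eq_zero.mp this with h | h
    · exact h
    · have : 0 < 1 + (s ^ 2 + s' ^ 2) / 16 := by positivity
      linarith
  have : (s - s') * (s + s') = 0 := by nlinarith
  rcases mul_eq_zero.mp this with h | h
  · linarith
  · linarith

lemma sys_exists : ∃ m s, Sys m s := by
  let μ : ℝ → ℝ := fun s => √(1 - s ^ 2 - (s ^ 2 / 4) ^ 2)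
  have hμ0 : ∀ s, 0 ≤ μ s := fun s => Real.sqrt_nonneg _
  have hμ1 : ∀ s, μ s ≤ 1 := fun s => by
    apply Real.sqrt_le_one.mpr
    nlinarith [sq_nonneg s, sq_nonneg (s ^ 2 / 4)]
  have hμc : Continuous μ := by fun_prop
  have hkc : Continuous kap := by
    unfold kap
    refine Continuous.div (by fun_prop) (by fun_prop) (fun y => by positivity)
  let g : ℝ → ℝ := fun s => μ s * tan ((1 + μ s) * kap s) - s ^ 2 / 4
  have hgc : Continuous g := by
    have : Continuous fun s => tan ((1 + μ s) * kap s) := by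
      simp only [Real.tan_eq_sin_div_cos]
      refine Continuous.div (by fun_prop) (by fun_prop) (fun s => ?_)
      have h0 := hμ0 s
      have h1 := hμ1 s
      have h2 := kap_pos s
      have h3 := kap_le s
      have := cos_ge_of_le_half (x := (1 + μ s) * kap s) (by positivity) (by nlinarith)
      linarith
    fun_prop
  have hg0 : 0 < g 0 := by
    have e : μ 0 = 1 := by simp [μ]
    have h2 := kap_pos 0
    have h3 := kap_le 0
    have := le_tan_of_le_half (x := (1 + 1) * kap 0) (by positivity) (by nlinarith)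
    simp only [g, e]
    have h4 : (0 : ℝ) ^ 2 / 4 = 0 := by norm_num
    rw [h4]
    linarith
  have hg1 : g 1 < 0 := by
    have e : μ 1 = 0 := by
      simp only [μ]
      apply Real.sqrt_eq_zero_of_nonpos
      norm_num
    simp only [g, e]
    norm_num
  obtain ⟨s, hs, hgs⟩ := intermediate_value_Icc' (zero_le_one' ℝ) hgc.continuousOn
    (show (0 : ℝ) ∈ Set.Icc (g 1) (g 0) from ⟨hg1.le, hg0.le⟩)
  have hs0 : 0 < s := by
    rcases hs.1.eq_or_lt with h | h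
    · rw [← h] at hgs; linarith
    · exact h
  have hm0 : 0 < μ s := by
    rcases (hμ0 s).eq_or_lt with h | h
    · simp only [g, ← h] at hgs
      nlinarith
    · exact h
  refine ⟨μ s, s, hm0, hμ1 s, hs0, ?_, ?_⟩
  · have : μ s ^ 2 = 1 - s ^ 2 - (s ^ 2 / 4) ^ 2 := by
      apply Real.sq_sqrt
      exact (Real.sqrt_pos.mp hm0).le
    linarith
  · simp only [g] at hgs
    linarith

lemma abs_le_one_of_sum_sq {x y w : ℝ} (h : x ^ 2 + y ^ 2 + w ^ 2 = 1) : -1 ≤ x ∧ x ≤ 1 := by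
  constructor <;> nlinarith [sq_nonneg y, sq_nonneg w, sq_nonneg (x - 1), sq_nonneg (x + 1)]

lemma neg_case {a1 a2 b1 b2 : ℝ} (ha : a1 ^ 2 + a2 ^ 2 + (a2 * b2 / 4) ^ 2 = 1)
    (hb : b1 ^ 2 + b2 ^ 2 + (a2 * b2 / 4) ^ 2 = 1)
    (e1 : a1 * tan ((1 - b1) * kap a2) = - (a2 * b2 / 4))
    (e2 : b1 * tan ((1 - a1) * kap b2) = - (a2 * b2 / 4)) : ¬ a2 * b2 < 0 := by
  intro hneg
  obtain ⟨ha1, ha2⟩ := abs_le_one_of_sum_sq ha
  obtain ⟨hb1, hb2⟩ := abs_le_one_of_sum_sq hb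
  have t1 := tan_le_of_le_half (ang_nonneg a2 hb2) (ang_le a2 hb1)
  have t2 := tan_le_of_le_half (ang_nonneg b2 ha2) (ang_le b2 ha1)
  have t1' := le_tan_of_le_half (ang_nonneg a2 hb2) (ang_le a2 hb1)
  have t2' := le_tan_of_le_half (ang_nonneg b2 ha2) (ang_le b2 ha1)
  have n1 := ang_nonneg a2 hb2
  have n2 := ang_nonneg b2 ha2
  have k1 := kap_le a2
  have k2 := kap_le b2
  set T1 := tan ((1 - b1) * kap a2)
  set T2 := tan ((1 - a1) * kap b2)
  set w := -(a2 * b2 / 4) with hw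
  have hw0 : 0 < w := by linarith
  have ha0 : 0 < a1 := by
    by_contra hc
    push Not at hc
    have := mul_nonpos_of_nonpos_of_nonneg hc (n1.trans t1')
    linarith
  have hb0 : 0 < b1 := by
    by_contra hc
    push Not at hc
    have := mul_nonpos_of_nonpos_of_nonneg hc (n2.trans t2')
    linarith
  have u1 : T1 ≤ 2 / 7 * (1 - b1) := by
    have := mul_le_mul_of_nonneg_left k1 (sub_nonneg.mpr hb2)
    linarith
  have u2 : T2 ≤ 2 / 7 * (1 - a1) := by
    have := mul_le_mul_of_nonneg_left k2 (sub_nonneg.mpr ha2)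
    linarith
  have v1 : w ≤ 2 / 7 * (a1 * (1 - b1)) := by
    have := mul_le_mul_of_nonneg_left u1 ha0.le
    linarith
  have v2 : w ≤ 2 / 7 * (b1 * (1 - a1)) := by
    have := mul_le_mul_of_nonneg_left u2 hb0.le
    linarith
  have hb22 : b2 ^ 2 ≤ 1 := by linarith [sq_nonneg b1, sq_nonneg (a2 * b2 / 4)]
  have ha22 : a2 ^ 2 ≤ 1 := by linarith [sq_nonneg a1, sq_nonneg (a2 * b2 / 4)]
  have p1 : 2 * (a1 * (1 - a1)) ≤ 17 / 16 * a2 ^ 2 := by
    have h1 := mul_le_mul_of_nonneg_left hb22 (sq_nonneg a2)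
    have h2 : (a2 * b2 / 4) ^ 2 = a2 ^ 2 * b2 ^ 2 / 16 := by ring
    have h3 : 2 * (a1 * (1 - a1)) = 1 - a1 ^ 2 - (1 - a1) ^ 2 := by ring
    have h4 := sq_nonneg (1 - a1)
    linarith
  have p2 : 2 * (b1 * (1 - b1)) ≤ 17 / 16 * b2 ^ 2 := by
    have h1 := mul_le_mul_of_nonneg_left ha22 (sq_nonneg b2)
    have h2 : (a2 * b2 / 4) ^ 2 = b2 ^ 2 * a2 ^ 2 / 16 := by ring
    have h3 : 2 * (b1 * (1 - b1)) = 1 - b1 ^ 2 - (1 - b1) ^ 2 := by ring
    have h4 := sq_nonneg (1 - b1)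
    linarith
  have q1 : w * w ≤ (2 / 7 * (a1 * (1 - b1))) * (2 / 7 * (b1 * (1 - a1))) :=
    mul_le_mul v1 v2 hw0.le (hw0.le.trans v1)
  have r1 : 0 ≤ a1 * (1 - a1) := mul_nonneg ha0.le (by linarith)
  have r2 : 0 ≤ b1 * (1 - b1) := mul_nonneg hb0.le (by linarith)
  have q2 : (2 * (a1 * (1 - a1))) * (2 * (b1 * (1 - b1))) ≤ (17 / 16 * a2 ^ 2) * (17 / 16 * b2 ^ 2) :=
    mul_le_mul p1 p2 (by linarith) (by positivity)
  have q3 : w * w = a2 ^ 2 * b2 ^ 2 / 16 := by rw [hw]; ring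
  have q4 : 0 < w * w := mul_pos hw0 hw0
  have q5 : (2 / 7 * (a1 * (1 - b1))) * (2 / 7 * (b1 * (1 - a1)))
      = 1 / 49 * ((2 * (a1 * (1 - a1))) * (2 * (b1 * (1 - b1)))) := by ring
  have q6 : (17 / 16 * a2 ^ 2) * (17 / 16 * b2 ^ 2) = 289 / 256 * (a2 ^ 2 * b2 ^ 2) := by ring
  linarith

lemma pos_case_aux {a1 a2 b1 b2 : ℝ} (ha : a1 ^ 2 + a2 ^ 2 + (a2 * b2 / 4) ^ 2 = 1)
    (hb : b1 ^ 2 + b2 ^ 2 + (a2 * b2 / 4) ^ 2 = 1)
    (e1 : a1 * tan ((1 - b1) * kap a2) = - (a2 * b2 / 4))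
    (e2 : b1 * tan ((1 - a1) * kap b2) = - (a2 * b2 / 4)) (hpos : 0 < a2 * b2) :
    a1 < 0 ∧ ¬ a1 < b1 := by
  obtain ⟨ha1, ha2⟩ := abs_le_one_of_sum_sq ha
  obtain ⟨hb1, hb2⟩ := abs_le_one_of_sum_sq hb
  have t1' := le_tan_of_le_half (ang_nonneg a2 hb2) (ang_le a2 hb1)
  have t2' := le_tan_of_le_half (ang_nonneg b2 ha2) (ang_le b2 ha1)
  have n1 := ang_nonneg a2 hb2
  have n2 := ang_nonneg b2 ha2
  have ha0 : a1 < 0 := by
    by_contra hc
    push Not at hc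
    nlinarith
  have hb0 : b1 < 0 := by
    by_contra hc
    push Not at hc
    nlinarith
  refine ⟨ha0, fun hlt => ?_⟩
  have hsq : a2 ^ 2 < b2 ^ 2 := by nlinarith
  have hk := kap_lt_kap hsq
  have hk0 := kap_pos b2
  have h1 := mono_aux (k := kap b2) (m := -a1) (n := -b1) hk0 (kap_le _) (by linarith)
    (by linarith) (by linarith)
  have h2 : tan ((1 - b1) * kap b2) < tan ((1 - b1) * kap a2) :=
    tan_lt_tan_of_le_half (ang_nonneg b2 hb2) (by nlinarith) (ang_le a2 hb1)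
  have h3 : 1 + -a1 = 1 - a1 := by ring
  have h4 : 1 + -b1 = 1 - b1 := by ring
  rw [h3, h4] at h1
  nlinarith

/-- Classification of the solutions of the fixed point equations. -/
theorem classify {a1 a2 b1 b2 : ℝ} (ha : a1 ^ 2 + a2 ^ 2 + (a2 * b2 / 4) ^ 2 = 1)
    (hb : b1 ^ 2 + b2 ^ 2 + (a2 * b2 / 4) ^ 2 = 1)
    (e1 : a1 * tan ((1 - b1) * kap a2) = - (a2 * b2 / 4))
    (e2 : b1 * tan ((1 - a1) * kap b2) = - (a2 * b2 / 4)) :
    (a1 = 1 ∧ a2 = 0 ∧ b1 = 1 ∧ b2 = 0) ∨ (b1 = a1 ∧ b2 = a2 ∧ Sys (-a1) |a2|) := by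
  obtain ⟨ha1, ha2⟩ := abs_le_one_of_sum_sq ha
  obtain ⟨hb1, hb2⟩ := abs_le_one_of_sum_sq hb
  rcases lt_trichotomy (a2 * b2) 0 with h | h | h
  · exact absurd h (neg_case ha hb e1 e2)
  · left
    rw [h] at ha hb e1 e2
    simp only [zero_div, neg_zero, mul_eq_zero] at e1 e2
    have key : a1 = 1 ∧ b1 = 1 := by
      rcases mul_eq_zero.mp h with h0 | h0
      · have hne : a1 ≠ 0 := by
          intro h1; rw [h0, h1] at ha; norm_num at ha
        have hb1' : b1 = 1 := eq_one_of_tan_eq_zero hb1 hb2 (e1.resolve_left hne)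
        have hne' : b1 ≠ 0 := by rw [hb1']; norm_num
        exact ⟨eq_one_of_tan_eq_zero ha1 ha2 (e2.resolve_left hne'), hb1'⟩
      · have hne : b1 ≠ 0 := by
          intro h1; rw [h0, h1] at hb; norm_num at hb
        have ha1' : a1 = 1 := eq_one_of_tan_eq_zero ha1 ha2 (e2.resolve_left hne)
        have hne' : a1 ≠ 0 := by rw [ha1']; norm_num
        exact ⟨ha1', eq_one_of_tan_eq_zero hb1 hb2 (e1.resolve_left hne')⟩
    obtain ⟨k1, k2⟩ := key
    rw [k1] at ha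
    rw [k2] at hb
    refine ⟨k1, ?_, k2, ?_⟩
    · nlinarith
    · nlinarith
  · right
    obtain ⟨h1, h2⟩ := pos_case_aux ha hb e1 e2 h
    obtain ⟨h3, h4⟩ := pos_case_aux (a1 := b1) (a2 := b2) (b1 := a1) (b2 := a2)
      (by rw [mul_comm b2 a2]; exact hb) (by rw [mul_comm b2 a2]; exact ha)
      (by rw [mul_comm b2 a2]; exact e2) (by rw [mul_comm b2 a2]; exact e1)
      (by rw [mul_comm b2 a2]; exact h)
    have hab : b1 = a1 := le_antisymm (not_lt.mp h2) (not_lt.mp h4)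
    subst hab
    have hsq : (b2 - a2) * (b2 + a2) = 0 := by nlinarith
    have hab2 : b2 = a2 := by
      rcases mul_eq_zero.mp hsq with h5 | h5
      · linarith
      · have : b2 = -a2 := by linarith
        rw [this] at h
        nlinarith [sq_nonneg a2]
    subst hab2
    have hne : b2 ≠ 0 := by
      intro h0; rw [h0] at h; simp at h
    refine ⟨rfl, rfl, by linarith, by linarith, abs_pos.mpr hne, ?_, ?_⟩
    · rw [sq_abs]; nlinarith
    · rw [sq_abs, kap_eq_of_sq (sq_abs b2)]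
      have h3 : 1 + -b1 = 1 - b1 := by ring
      rw [h3]
      nlinarith

end Crest.Agent.R205
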