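import Mathlib
import Crest.Prelude.Def_QuadricHamiltonian
import Crest.Agent.R205.Real

/-!
Skew operators on `ℂ⁵`, their one-parameter rotation groups, moment functions and twist flows.
-/

set_option autoImplicit false

namespace Crest.Agent.R205

open Crest.GeometryTopology.Quadric

abbrev E : Type := Fin 5 → ℂ

/-- The complex bilinear form. -/
def bil (u w : E) : ℂ := ∑ j, u j * w j

lemma herm_add_left (u v w : E) : herm (u + v) w = herm u w + herm v w := by
  simp [herm, add_mul, Finset.sum_add_distrib]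

lemma herm_add_right (u v w : E) : herm u (v + w) = herm u v + herm u w := by
  simp [herm, mul_add, Finset.sum_add_distrib]

lemma herm_smul_left (c : ℂ) (u w : E) : herm (c • u) w = starRingEnd ℂ c * herm u w := by
  simp [herm, Finset.mul_sum, mul_assoc]

lemma herm_smul_right (c : ℂ) (u w : E) : herm u (c • w) = c * herm u w := by
  simp [herm, Finset.mul_sum, mul_left_comm]

lemma herm_rsmul_left (r : ℝ) (u w : E) : herm (r • u) w = r * herm u w := by
  simp [herm, Finset.mul_sum, mul_assoc]

lemma herm_rsmul_right (r : ℝ) (u w : E) : herm u (r • w) = r * herm u w := by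
  simp [herm, Finset.mul_sum, mul_left_comm]

lemma herm_neg_right (u w : E) : herm u (-w) = - herm u w := by
  simp [herm]

lemma herm_conj (u w : E) : starRingEnd ℂ (herm u w) = herm w u := by
  simp [herm, mul_comm]

lemma bil_add_left (u v w : E) : bil (u + v) w = bil u w + bil v w := by
  simp [bil, add_mul, Finset.sum_add_distrib]

lemma bil_add_right (u v w : E) : bil u (v + w) = bil u v + bil u w := by
  simp [bil, mul_add, Finset.sum_add_distrib]

lemma bil_rsmul_left (r : ℝ) (u w : E) : bil (r • u) w = r * bil u w := by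
  simp [bil, Finset.mul_sum, mul_assoc]

lemma bil_rsmul_right (r : ℝ) (u w : E) : bil u (r • w) = r * bil u w := by
  simp [bil, Finset.mul_sum, mul_left_comm]

lemma bil_neg_right (u w : E) : bil u (-w) = - bil u w := by
  simp [bil]

lemma mem_cone_iff (z : E) : z ∈ unitCone ↔ herm z z = 1 ∧ bil z z = 0 := by
  simp [unitCone, bil, sq]

/-- A real skew-symmetric operator with `A³ = -A`. -/
structure Skew where
  A : E →L[ℂ] E
  skewH : ∀ u w, herm (A u) w = - herm u (A w)
  skewB : ∀ u w, bil (A u) w = - bil u (A w)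
  cube : ∀ u, A (A (A u)) = - A u

/-- The rotation `exp (θ A)` by Rodrigues' formula. -/
noncomputable def rot (S : Skew) (θ : ℝ) (z : E) : E :=
  z + Real.sin θ • S.A z + (1 - Real.cos θ) • S.A (S.A z)

/-- The moment function of `A`. -/
noncomputable def mom (S : Skew) (z : E) : ℝ := (herm (S.A z) z).im

lemma A_rsmul (S : Skew) (r : ℝ) (z : E) : S.A (r • z) = r • S.A z :=
  S.A.map_smul_of_tower r z

lemma rot_zero (S : Skew) (z : E) : rot S 0 z = z := by simp [rot]

lemma rot_smul (S : Skew) (θ : ℝ) (c : ℂ) (z : E) : rot S θ (c • z) = c • rot S θ z := by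
  simp only [rot, map_smul, smul_add, smul_comm c]

lemma rot_add (S : Skew) (θ : ℝ) (z w : E) : rot S θ (z + w) = rot S θ z + rot S θ w := by
  simp only [rot, map_add, smul_add]
  abel

lemma rot_rsmul (S : Skew) (θ : ℝ) (c : ℝ) (z : E) : rot S θ (c • z) = c • rot S θ z := by
  simp only [rot, A_rsmul, smul_add, smul_comm c]

lemma herm_rot (S : Skew) (θ : ℝ) (u w : E) : herm (rot S θ u) (rot S θ w) = herm u w := by
  have h : (Real.sin θ : ℂ) ^ 2 + (Real.cos θ : ℂ) ^ 2 = 1 := by
    exact_mod_cast Real.sin_sq_add_cos_sq θ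
  simp only [rot, herm_add_left, herm_add_right, herm_rsmul_left, herm_rsmul_right, S.skewH,
    S.cube, herm_neg_right, map_neg]
  push_cast at h ⊢
  linear_combination (-herm u (S.A (S.A w))) * h

lemma bil_rot (S : Skew) (θ : ℝ) (u w : E) : bil (rot S θ u) (rot S θ w) = bil u w := by
  have h : (Real.sin θ : ℂ) ^ 2 + (Real.cos θ : ℂ) ^ 2 = 1 := by
    exact_mod_cast Real.sin_sq_add_cos_sq θ
  simp only [rot, bil_add_left, bil_add_right, bil_rsmul_left, bil_rsmul_right, S.skewB,
    S.cube, bil_neg_right, map_neg]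
  push_cast at h ⊢
  linear_combination (-bil u (S.A (S.A w))) * h

lemma rot_mem_cone (S : Skew) (θ : ℝ) {z : E} (hz : z ∈ unitCone) : rot S θ z ∈ unitCone := by
  rw [mem_cone_iff] at hz ⊢
  rw [herm_rot, bil_rot]
  exact hz

/-- Commuting operators. -/
def Comm (S T : Skew) : Prop := ∀ u, S.A (T.A u) = T.A (S.A u)

lemma Comm.symm {S T : Skew} (h : Comm S T) : Comm T S := fun u => (h u).symm

lemma comm_self (S : Skew) : Comm S S := fun _ => rfl

lemma A_rot {S T : Skew} (h : Comm S T) (θ : ℝ) (z : E) :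
    T.A (rot S θ z) = rot S θ (T.A z) := by
  simp only [rot, map_add, A_rsmul, h _]

lemma mom_rot {S T : Skew} (h : Comm S T) (θ : ℝ) (z : E) : mom T (rot S θ z) = mom T z := by
  simp only [mom, A_rot h, herm_rot]

lemma mom_smul (S : Skew) {c : ℂ} (hc : ‖c‖ = 1) (z : E) : mom S (c • z) = mom S z := by
  have : starRingEnd ℂ c * c = 1 := by
    rw [Complex.conj_mul', hc]; simp
  simp only [mom, map_smul, herm_smul_left, herm_smul_right]
  rw [← mul_assoc, mul_comm c, this, one_mul]

lemma mom_line (S : Skew) (x w : E) (s : ℝ) :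
    mom S (x + s • w) = mom S x + s * (2 * (herm (S.A x) w).im) + s ^ 2 * mom S w := by
  have h1 : herm (S.A w) x = - starRingEnd ℂ (herm (S.A x) w) := by
    rw [S.skewH, herm_conj]
  simp only [mom, map_add, A_rsmul, herm_add_left, herm_add_right, herm_rsmul_left,
    herm_rsmul_right, h1]
  simp
  ring

lemma hasDerivAt_mom_line (S : Skew) (x w : E) :
    HasDerivAt (fun s : ℝ => mom S (x + s • w)) (2 * (herm (S.A x) w).im) 0 := by
  simp only [mom_line]
  have h1 := ((hasDerivAt_id (0 : ℝ)).mul_const (2 * (herm (S.A x) w).im)).const_add (mom S x)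
  have h2 := (hasDerivAt_pow 2 (0 : ℝ)).mul_const (mom S w)
  refine (h1.add h2).congr_deriv ?_
  simp

lemma contDiff_herm {X : Type*} [NormedAddCommGroup X] [NormedSpace ℝ X] {n : WithTop ℕ∞}
    {f g : X → E} (hf : ContDiff ℝ n f) (hg : ContDiff ℝ n g) :
    ContDiff ℝ n (fun x => herm (f x) (g x)) := by
  unfold herm
  refine ContDiff.sum fun j _ => ContDiff.mul ?_ (contDiff_pi.mp hg j)
  exact Complex.conjCLE.contDiff.comp (contDiff_pi.mp hf j)

lemma contDiff_A (S : Skew) {n : WithTop ℕ∞} : ContDiff ℝ n (fun z => S.A z) :=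
  (S.A.restrictScalars ℝ).contDiff

lemma contDiff_mom (S : Skew) {n : WithTop ℕ∞} : ContDiff ℝ n (mom S) :=
  Complex.imCLM.contDiff.comp (contDiff_herm (contDiff_A S) contDiff_id)

lemma contDiff_rot {X : Type*} [NormedAddCommGroup X] [NormedSpace ℝ X] {n : WithTop ℕ∞}
    (S : Skew) {θ : X → ℝ} {g : X → E} (hθ : ContDiff ℝ n θ) (hg : ContDiff ℝ n g) :
    ContDiff ℝ n (fun x => rot S (θ x) (g x)) := by
  unfold rot
  refine (hg.add (hθ.sin.smul ((contDiff_A S).comp hg))).add
    ((contDiff_const.sub hθ.cos).smul ((contDiff_A S).comp ((contDiff_A S).comp hg)))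

lemma contDiff_kap {n : WithTop ℕ∞} : ContDiff ℝ n kap := by
  unfold kap
  refine ContDiff.div contDiff_const (by fun_prop) (fun y => by positivity)

lemma hasDerivAt_A (S : Skew) {g : ℝ → E} {g' : E} {s : ℝ} (hg : HasDerivAt g g' s) :
    HasDerivAt (fun s => S.A (g s)) (S.A g') s :=
  (S.A.restrictScalars ℝ).hasFDerivAt.comp_hasDerivAt s hg

lemma hasDerivAt_rot (S : Skew) {θ : ℝ → ℝ} {θ' : ℝ} {g : ℝ → E} {g' : E} {s : ℝ}
    (hθ : HasDerivAt θ θ' s) (hg : HasDerivAt g g' s) :
    HasDerivAt (fun s => rot S (θ s) (g s))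
      (θ' • S.A (rot S (θ s) (g s)) + rot S (θ s) g') s := by
  have h1 := hasDerivAt_A S hg
  have h2 := hasDerivAt_A S h1
  have h3 := (hg.add (hθ.sin.smul h1)).add ((hθ.cos.const_sub 1).smul h2)
  refine h3.congr_deriv ?_
  simp only [rot, map_add, A_rsmul, S.cube]
  module

/-- first angle -/
noncomputable def angA (T : Skew) (p : ℝ) (z : E) : ℝ := p - Real.arctan (mom T z / 4)

/-- second angle -/
noncomputable def angB (S T : Skew) (z : E) : ℝ := (1 - mom S z) * kap (mom T z)

/-- The flow of the Hamiltonian `ham S T p`. -/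
noncomputable def twist (S T : Skew) (p τ : ℝ) (z : E) : E :=
  rot S (τ * angA T p z) (rot T (τ * angB S T z) z)

/-- The Hamiltonian. -/
noncomputable def ham (S T : Skew) (p : ℝ) (x : E) : ℝ :=
  p * mom S x + (1 - mom S x) * Real.arctan (mom T x / 4)

lemma contDiff_angA (T : Skew) (p : ℝ) {n : WithTop ℕ∞} : ContDiff ℝ n (angA T p) :=
  contDiff_const.sub (Real.contDiff_arctan.comp ((contDiff_mom T).div_const 4))

lemma contDiff_angB (S T : Skew) {n : WithTop ℕ∞} : ContDiff ℝ n (angB S T) :=
  (contDiff_const.sub (contDiff_mom S)).mul (contDiff_kap.comp (contDiff_mom T))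

lemma contDiff_twist {X : Type*} [NormedAddCommGroup X] [NormedSpace ℝ X] {n : WithTop ℕ∞}
    (S T : Skew) (p : ℝ) {τ : X → ℝ} {g : X → E} (hτ : ContDiff ℝ n τ) (hg : ContDiff ℝ n g) :
    ContDiff ℝ n (fun x => twist S T p (τ x) (g x)) :=
  contDiff_rot S (hτ.mul ((contDiff_angA T p).comp hg))
    (contDiff_rot T (hτ.mul ((contDiff_angB S T).comp hg)) hg)

lemma contDiff_ham (S T : Skew) (p : ℝ) {n : WithTop ℕ∞} : ContDiff ℝ n (ham S T p) :=
  (contDiff_const.mul (contDiff_mom S)).add ((contDiff_const.sub (contDiff_mom S)).mul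
    (Real.contDiff_arctan.comp ((contDiff_mom T).div_const 4)))

lemma twist_zero (S T : Skew) (p : ℝ) (z : E) : twist S T p 0 z = z := by
  simp [twist, rot_zero]

lemma twist_mem_cone (S T : Skew) (p τ : ℝ) {z : E} (hz : z ∈ unitCone) :
    twist S T p τ z ∈ unitCone :=
  rot_mem_cone _ _ (rot_mem_cone _ _ hz)

lemma twist_smul (S T : Skew) (p τ : ℝ) {c : ℂ} (hc : ‖c‖ = 1) (z : E) :
    twist S T p τ (c • z) = c • twist S T p τ z := by
  simp only [twist, angA, angB, mom_smul _ hc, rot_smul]

lemma ham_smul (S T : Skew) (p : ℝ) {c : ℂ} (hc : ‖c‖ = 1) (z : E) :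
    ham S T p (c • z) = ham S T p z := by
  simp only [ham, mom_smul _ hc]

lemma mom_twist_left {S T : Skew} (h : Comm S T) (p τ : ℝ) (z : E) :
    mom S (twist S T p τ z) = mom S z := by
  rw [twist, mom_rot (comm_self S), mom_rot h.symm]

lemma mom_twist_right {S T : Skew} (h : Comm S T) (p τ : ℝ) (z : E) :
    mom T (twist S T p τ z) = mom T z := by
  rw [twist, mom_rot h, mom_rot (comm_self T)]

lemma angA_twist {S T : Skew} (h : Comm S T) (p τ : ℝ) (z : E) :
    angA T p (twist S T p τ z) = angA T p z := by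
  simp only [angA, mom_twist_right h]

lemma angB_twist {S T : Skew} (h : Comm S T) (p τ : ℝ) (z : E) :
    angB S T (twist S T p τ z) = angB S T z := by
  simp only [angB, mom_twist_right h, mom_twist_left h]

/-- The Hamiltonian vector field. -/
noncomputable def vf (S T : Skew) (p : ℝ) (x : E) : E :=
  angA T p x • S.A x + angB S T x • T.A x

lemma hasDerivAt_twist {S T : Skew} (h : Comm S T) (p : ℝ) {τ : ℝ → ℝ} {τ' s : ℝ}
    (hτ : HasDerivAt τ τ' s) (z : E) :
    HasDerivAt (fun s => twist S T p (τ s) z) (τ' • vf S T p (twist S T p (τ s) z)) s := by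
  have h1 := hasDerivAt_rot T (hτ.mul_const (angB S T z)) (hasDerivAt_const s z)
  have h2 := hasDerivAt_rot S (hτ.mul_const (angA T p z)) h1
  refine h2.congr_deriv (Eq.symm ?_)
  rw [vf, angA_twist h, angB_twist h]
  have h0 : ∀ θ, rot T θ (0 : E) = 0 := fun θ => by simp [rot]
  rw [h0, add_zero, rot_rsmul, ← A_rot h]
  simp only [twist, smul_add, smul_smul]

lemma hasDerivAt_ham_line (S T : Skew) (p : ℝ) (x w : E) :
    HasDerivAt (fun s : ℝ => ham S T p (x + s • w)) (2 * (herm (vf S T p x) w).im) 0 := by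
  have h1 := hasDerivAt_mom_line S x w
  have h2 := hasDerivAt_mom_line T x w
  have h3 := (h1.const_mul p).add ((h1.const_sub 1).mul ((h2.div_const 4).arctan))
  refine h3.congr_deriv (Eq.symm ?_)
  simp only [vf, herm_add_left, herm_rsmul_left, angA, angB, kap, zero_smul, add_zero]
  simp only [Complex.add_im, Complex.mul_im, Complex.ofReal_re, Complex.ofReal_im]
  ring

lemma fderiv_apply_of_line {F : Type*} [NormedAddCommGroup F] [NormedSpace ℝ F] {f : E → F}
    {x w : E} {v : F} (hf : DifferentiableAt ℝ f x) {γ : ℝ → E} (h0 : γ 0 = x)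
    (hγ : HasDerivAt γ w 0) (h : HasDerivAt (fun s => f (γ s)) v 0) : fderiv ℝ f x w = v := by
  have h1 : HasFDerivAt f (fderiv ℝ f x) (γ 0) := h0 ▸ hf.hasFDerivAt
  exact (h1.comp_hasDerivAt 0 hγ).unique h

lemma fderiv_ham (S T : Skew) (p : ℝ) (x w : E) :
    fderiv ℝ (ham S T p) x w = 2 * (herm (vf S T p x) w).im := by
  refine fderiv_apply_of_line (((contDiff_ham S T p (n := 1)).differentiable (by simp)) x)
    (γ := fun s => x + s • w) (by simp) ?_ (hasDerivAt_ham_line S T p x w)
  simpa using ((hasDerivAt_id (0 : ℝ)).smul_const w).const_add x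

/-- time reparametrisations -/
noncomputable def chi1 (t : ℝ) : ℝ := Real.smoothTransition (3 * t - 2)

noncomputable def chi2 (t : ℝ) : ℝ := Real.smoothTransition (3 * t)

lemma contDiff_chi1 : ContDiff ℝ (⊤ : ℕ∞) chi1 :=
  Real.smoothTransition.contDiff.comp (by fun_prop)

lemma contDiff_chi2 : ContDiff ℝ (⊤ : ℕ∞) chi2 :=
  Real.smoothTransition.contDiff.comp (by fun_prop)

lemma chi1_of_le {t : ℝ} (h : t ≤ 2 / 3) : chi1 t = 0 :=
  Real.smoothTransition.zero_of_nonpos (by linarith)

lemma chi2_of_ge {t : ℝ} (h : 1 / 3 ≤ t) : chi2 t = 1 :=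
  Real.smoothTransition.one_of_one_le (by linarith)

lemma chi1_one : chi1 1 = 1 := Real.smoothTransition.one_of_one_le (by norm_num)

lemma chi2_zero : chi2 0 = 0 := Real.smoothTransition.zero_of_nonpos (by norm_num)

/-- The concatenation of two twist flows as a Hamiltonian cone lift. -/
noncomputable def lift (S T S' T' : Skew) (h : Comm S T) (h' : Comm S' T') (p p' : ℝ) :
    HamiltonianConeLift where
  Ψ q := twist S T p (chi1 q.1) (twist S' T' p' (chi2 q.1) q.2)
  H q := deriv chi1 q.1 * ham S T p q.2 + deriv chi2 q.1 * ham S' T' p' q.2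
  smooth_Ψ := contDiff_twist S T p (contDiff_chi1.comp contDiff_fst)
    (contDiff_twist S' T' p' (contDiff_chi2.comp contDiff_fst) contDiff_snd)
  smooth_H := by
    have h1 := (contDiff_infty_iff_deriv.mp contDiff_chi1).2
    have h2 := (contDiff_infty_iff_deriv.mp contDiff_chi2).2
    exact ((h1.comp contDiff_fst).mul ((contDiff_ham S T p).comp contDiff_snd)).add
      ((h2.comp contDiff_fst).mul ((contDiff_ham S' T' p').comp contDiff_snd))
  mapsTo_cone t z hz := twist_mem_cone _ _ _ _ (twist_mem_cone _ _ _ _ hz)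
  compatible t z hz c hc := ⟨c, by simp only [twist_smul _ _ _ _ hc]⟩
  start z hz := ⟨1, by simp [chi1_of_le (show (0 : ℝ) ≤ 2 / 3 by norm_num), chi2_zero, twist_zero]⟩
  invariant t z hz c hc := by simp only [ham_smul _ _ _ hc]
  hamilton t ht z hz w hw := by
    have d1 : Differentiable ℝ (ham S T p) := (contDiff_ham S T p (n := 1)).differentiable (by simp)
    have d2 : Differentiable ℝ (ham S' T' p') :=
      (contDiff_ham S' T' p' (n := 1)).differentiable (by simp)
    have c1 : HasDerivAt chi1 (deriv chi1 t) t :=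
      ((contDiff_chi1.differentiable (by simp)) t).hasDerivAt
    have c2 : HasDerivAt chi2 (deriv chi2 t) t :=
      ((contDiff_chi2.differentiable (by simp)) t).hasDerivAt
    have hf : ∀ x : E, fderiv ℝ
        (fun x : E => deriv chi1 t * ham S T p x + deriv chi2 t * ham S' T' p' x) x w
        = deriv chi1 t * (2 * (herm (vf S T p x) w).im)
          + deriv chi2 t * (2 * (herm (vf S' T' p' x) w).im) := by
      intro x
      have := (((d1 x).hasFDerivAt.const_mul (deriv chi1 t)).add
        ((d2 x).hasFDerivAt.const_mul (deriv chi2 t))).fderiv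
      erw [this]
      simp [fderiv_ham]
    dsimp only
    rw [hf]
    rcases lt_or_ge t (2 / 3) with ht1 | ht1
    · have e1 : chi1 =ᶠ[nhds t] fun _ => 0 := by
        filter_upwards [Iio_mem_nhds ht1] with s hs using chi1_of_le (le_of_lt hs)
      have e2 : (fun s => twist S T p (chi1 s) (twist S' T' p' (chi2 s) z)) =ᶠ[nhds t]
          fun s => twist S' T' p' (chi2 s) z := by
        filter_upwards [e1] with s hs
        rw [hs, twist_zero]
      rw [e2.deriv_eq, e1.deriv_eq, (hasDerivAt_twist h' p' c2 z).deriv, chi1_of_le ht1.le,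
        twist_zero, herm_rsmul_left]
      simp
      ring
    · have ht2 : 1 / 3 < t := by linarith
      have e1 : chi2 =ᶠ[nhds t] fun _ => 1 := by
        filter_upwards [Ioi_mem_nhds ht2] with s hs using chi2_of_ge (le_of_lt hs)
      have e2 : (fun s => twist S T p (chi1 s) (twist S' T' p' (chi2 s) z)) =ᶠ[nhds t]
          fun s => twist S T p (chi1 s) (twist S' T' p' 1 z) := by
        filter_upwards [e1] with s hs
        rw [hs]
      rw [e2.deriv_eq, e1.deriv_eq, (hasDerivAt_twist h p c1 _).deriv, chi2_of_ge ht2.le,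
        herm_rsmul_left]
      simp
      ring

lemma lift_one (S T S' T' : Skew) (h : Comm S T) (h' : Comm S' T') (p p' : ℝ) (z : E) :
    (lift S T S' T' h h' p p').Ψ (1, z) = twist S T p 1 (twist S' T' p' 1 z) := by
  simp only [lift, chi1_one, chi2_of_ge (show (1 / 3 : ℝ) ≤ 1 by norm_num)]

end Crest.Agent.R205
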