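import Mathlib
import Crest.Agent.R205.Basic

/-!
The quaternionic left and right multiplications on the last four coordinates of `ℂ⁵`.
-/

set_option autoImplicit false

namespace Crest.Agent.R205

open Crest.GeometryTopology.Quadric

/-- signed permutation of the coordinates -/
noncomputable def sperm (e : Fin 5 → ℂ) (σ : Fin 5 → Fin 5) : E →L[ℂ] E :=
  ContinuousLinearMap.pi fun j => e j • ContinuousLinearMap.proj (σ j)

lemma sperm_apply (e : Fin 5 → ℂ) (σ : Fin 5 → Fin 5) (z : E) (j : Fin 5) :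
    sperm e σ z j = e j * z (σ j) := by
  simp [sperm]

macro "skew_tac" : tactic => `(tactic| first
  | (intro u w; simp [herm, bil, Fin.sum_univ_five, sperm_apply]; ring)
  | (intro u; ext j; fin_cases j <;> simp [sperm_apply]))

noncomputable def Li : Skew :=
  ⟨sperm ![0, -1, 1, -1, 1] ![0, 2, 1, 4, 3], by skew_tac, by skew_tac, by skew_tac⟩
noncomputable def Lj : Skew :=
  ⟨sperm ![0, -1, 1, 1, -1] ![0, 3, 4, 1, 2], by skew_tac, by skew_tac, by skew_tac⟩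
noncomputable def Lk : Skew :=
  ⟨sperm ![0, -1, -1, 1, 1] ![0, 4, 3, 2, 1], by skew_tac, by skew_tac, by skew_tac⟩
noncomputable def Ri : Skew :=
  ⟨sperm ![0, -1, 1, 1, -1] ![0, 2, 1, 4, 3], by skew_tac, by skew_tac, by skew_tac⟩
noncomputable def Rj : Skew :=
  ⟨sperm ![0, -1, -1, 1, 1] ![0, 3, 4, 1, 2], by skew_tac, by skew_tac, by skew_tac⟩
noncomputable def Rk : Skew :=
  ⟨sperm ![0, -1, 1, -1, 1] ![0, 4, 3, 2, 1], by skew_tac, by skew_tac, by skew_tac⟩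

lemma Li_A (z : E) : Li.A z = ![0, -z 2, z 1, -z 4, z 3] := by
  ext j; fin_cases j <;> simp [Li, sperm_apply]
lemma Lj_A (z : E) : Lj.A z = ![0, -z 3, z 4, z 1, -z 2] := by
  ext j; fin_cases j <;> simp [Lj, sperm_apply]
lemma Lk_A (z : E) : Lk.A z = ![0, -z 4, -z 3, z 2, z 1] := by
  ext j; fin_cases j <;> simp [Lk, sperm_apply]
lemma Ri_A (z : E) : Ri.A z = ![0, -z 2, z 1, z 4, -z 3] := by
  ext j; fin_cases j <;> simp [Ri, sperm_apply]
lemma Rj_A (z : E) : Rj.A z = ![0, -z 3, -z 4, z 1, z 2] := by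
  ext j; fin_cases j <;> simp [Rj, sperm_apply]
lemma Rk_A (z : E) : Rk.A z = ![0, -z 4, z 3, -z 2, z 1] := by
  ext j; fin_cases j <;> simp [Rk, sperm_apply]

macro "comm_tac" : tactic => `(tactic|
  (intro u; simp [Li_A, Lj_A, Lk_A, Ri_A, Rj_A, Rk_A]))

lemma comm_Li_Ri : Comm Li Ri := by comm_tac
lemma comm_Li_Rj : Comm Li Rj := by comm_tac
lemma comm_Li_Rk : Comm Li Rk := by comm_tac
lemma comm_Lj_Ri : Comm Lj Ri := by comm_tac
lemma comm_Lj_Rj : Comm Lj Rj := by comm_tac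
lemma comm_Lj_Rk : Comm Lj Rk := by comm_tac
lemma comm_Lk_Ri : Comm Lk Ri := by comm_tac
lemma comm_Lk_Rj : Comm Lk Rj := by comm_tac

lemma rot_Li (θ : ℝ) (z : E) : rot Li θ z =
    ![z 0, Real.cos θ * z 1 - Real.sin θ * z 2, Real.cos θ * z 2 + Real.sin θ * z 1,
      Real.cos θ * z 3 - Real.sin θ * z 4, Real.cos θ * z 4 + Real.sin θ * z 3] := by
  ext j; fin_cases j <;> simp [rot, Li, sperm_apply] <;> ring

lemma rot_Lj (θ : ℝ) (z : E) : rot Lj θ z =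
    ![z 0, Real.cos θ * z 1 - Real.sin θ * z 3, Real.cos θ * z 2 + Real.sin θ * z 4,
      Real.cos θ * z 3 + Real.sin θ * z 1, Real.cos θ * z 4 - Real.sin θ * z 2] := by
  ext j; fin_cases j <;> simp [rot, Lj, sperm_apply] <;> ring

lemma rot_Ri (θ : ℝ) (z : E) : rot Ri θ z =
    ![z 0, Real.cos θ * z 1 - Real.sin θ * z 2, Real.cos θ * z 2 + Real.sin θ * z 1,
      Real.cos θ * z 3 + Real.sin θ * z 4, Real.cos θ * z 4 - Real.sin θ * z 3] := by
  ext j; fin_cases j <;> simp [rot, Ri, sperm_apply] <;> ring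

lemma rot_Rj (θ : ℝ) (z : E) : rot Rj θ z =
    ![z 0, Real.cos θ * z 1 - Real.sin θ * z 3, Real.cos θ * z 2 - Real.sin θ * z 4,
      Real.cos θ * z 3 + Real.sin θ * z 1, Real.cos θ * z 4 + Real.sin θ * z 2] := by
  ext j; fin_cases j <;> simp [rot, Rj, sperm_apply] <;> ring

/-- `Im (conj u * w)` -/
def om (u w : ℂ) : ℝ := u.re * w.im - u.im * w.re

lemma mom_Li (z : E) : mom Li z = 2 * (om (z 1) (z 2) + om (z 3) (z 4)) := by
  simp [mom, herm, Fin.sum_univ_five, Li_A, om]; ring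
lemma mom_Lj (z : E) : mom Lj z = 2 * (om (z 1) (z 3) + om (z 4) (z 2)) := by
  simp [mom, herm, Fin.sum_univ_five, Lj_A, om]; ring
lemma mom_Lk (z : E) : mom Lk z = 2 * (om (z 1) (z 4) + om (z 2) (z 3)) := by
  simp [mom, herm, Fin.sum_univ_five, Lk_A, om]; ring
lemma mom_Ri (z : E) : mom Ri z = 2 * (om (z 1) (z 2) - om (z 3) (z 4)) := by
  simp [mom, herm, Fin.sum_univ_five, Ri_A, om]; ring
lemma mom_Rj (z : E) : mom Rj z = 2 * (om (z 1) (z 3) - om (z 4) (z 2)) := by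
  simp [mom, herm, Fin.sum_univ_five, Rj_A, om]; ring
lemma mom_Rk (z : E) : mom Rk z = 2 * (om (z 1) (z 4) - om (z 2) (z 3)) := by
  simp [mom, herm, Fin.sum_univ_five, Rk_A, om]; ring

macro "equiv_tac" : tactic => `(tactic|
  (simp only [mom_Li, mom_Lj, mom_Lk, mom_Ri, mom_Rj, mom_Rk, rot_Li, rot_Lj, rot_Ri, rot_Rj, om,
      Matrix.cons_val, Matrix.cons_val_zero, Matrix.cons_val_one, Complex.add_re, Complex.add_im,
      Complex.sub_re, Complex.sub_im, Complex.re_ofReal_mul, Complex.im_ofReal_mul]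
   ring))

lemma mom_Lj_rot_Li (θ : ℝ) (z : E) : mom Lj (rot Li θ z) =
    (Real.cos θ ^ 2 - Real.sin θ ^ 2) * mom Lj z - 2 * Real.cos θ * Real.sin θ * mom Lk z := by
  equiv_tac
lemma mom_Lk_rot_Li (θ : ℝ) (z : E) : mom Lk (rot Li θ z) =
    (Real.cos θ ^ 2 - Real.sin θ ^ 2) * mom Lk z + 2 * Real.cos θ * Real.sin θ * mom Lj z := by
  equiv_tac
lemma mom_Li_rot_Lj (θ : ℝ) (z : E) : mom Li (rot Lj θ z) =
    (Real.cos θ ^ 2 - Real.sin θ ^ 2) * mom Li z + 2 * Real.cos θ * Real.sin θ * mom Lk z := by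
  equiv_tac
lemma mom_Lk_rot_Lj (θ : ℝ) (z : E) : mom Lk (rot Lj θ z) =
    (Real.cos θ ^ 2 - Real.sin θ ^ 2) * mom Lk z - 2 * Real.cos θ * Real.sin θ * mom Li z := by
  equiv_tac
lemma mom_Rj_rot_Ri (θ : ℝ) (z : E) : mom Rj (rot Ri θ z) =
    (Real.cos θ ^ 2 - Real.sin θ ^ 2) * mom Rj z + 2 * Real.cos θ * Real.sin θ * mom Rk z := by
  equiv_tac
lemma mom_Rk_rot_Ri (θ : ℝ) (z : E) : mom Rk (rot Ri θ z) =
    (Real.cos θ ^ 2 - Real.sin θ ^ 2) * mom Rk z - 2 * Real.cos θ * Real.sin θ * mom Rj z := by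
  equiv_tac
lemma mom_Ri_rot_Rj (θ : ℝ) (z : E) : mom Ri (rot Rj θ z) =
    (Real.cos θ ^ 2 - Real.sin θ ^ 2) * mom Ri z - 2 * Real.cos θ * Real.sin θ * mom Rk z := by
  equiv_tac
lemma mom_Rk_rot_Rj (θ : ℝ) (z : E) : mom Rk (rot Rj θ z) =
    (Real.cos θ ^ 2 - Real.sin θ ^ 2) * mom Rk z + 2 * Real.cos θ * Real.sin θ * mom Ri z := by
  equiv_tac

/-- real form of the cone equations -/
lemma cone_real {z : E} (hz : z ∈ unitCone) :
    (z 0).re ^ 2 + (z 0).im ^ 2 + (z 1).re ^ 2 + (z 1).im ^ 2 + (z 2).re ^ 2 + (z 2).im ^ 2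
      + (z 3).re ^ 2 + (z 3).im ^ 2 + (z 4).re ^ 2 + (z 4).im ^ 2 = 1 ∧
    (z 0).re ^ 2 - (z 0).im ^ 2 + (z 1).re ^ 2 - (z 1).im ^ 2 + (z 2).re ^ 2 - (z 2).im ^ 2
      + (z 3).re ^ 2 - (z 3).im ^ 2 + (z 4).re ^ 2 - (z 4).im ^ 2 = 0 ∧
    (z 0).re * (z 0).im + (z 1).re * (z 1).im + (z 2).re * (z 2).im + (z 3).re * (z 3).im
      + (z 4).re * (z 4).im = 0 := by
  obtain ⟨h1, h2⟩ := hz
  have h1' := congrArg Complex.re h1
  have h2' := congrArg Complex.re h2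
  have h3' := congrArg Complex.im h2
  simp [herm, Fin.sum_univ_five, sq] at h1' h2' h3'
  refine ⟨by linarith, by linarith, by linarith⟩

lemma momL_sq {z : E} (hz : z ∈ unitCone) :
    mom Li z ^ 2 + mom Lj z ^ 2 + mom Lk z ^ 2 = 1 - 2 * ((z 0).re ^ 2 + (z 0).im ^ 2) := by
  obtain ⟨h1, h2, h3⟩ := cone_real hz
  simp only [mom_Li, mom_Lj, mom_Lk, om]
  set x0 := (z 0).re
  set y0 := (z 0).im
  set X := (z 1).re ^ 2 + (z 2).re ^ 2 + (z 3).re ^ 2 + (z 4).re ^ 2 with hX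
  set Y := (z 1).im ^ 2 + (z 2).im ^ 2 + (z 3).im ^ 2 + (z 4).im ^ 2 with hY
  set Z := (z 1).re * (z 1).im + (z 2).re * (z 2).im + (z 3).re * (z 3).im
      + (z 4).re * (z 4).im with hZ
  have eX : X = 1 / 2 - x0 ^ 2 := by linarith
  have eY : Y = 1 / 2 - y0 ^ 2 := by linarith
  have eZ : Z = - (x0 * y0) := by linarith
  have : 4 * (X * Y) - 4 * Z ^ 2 = 1 - 2 * (x0 ^ 2 + y0 ^ 2) := by rw [eX, eY, eZ]; ring
  rw [← this, hX, hY, hZ]
  ring

lemma momR_sq {z : E} (hz : z ∈ unitCone) :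
    mom Ri z ^ 2 + mom Rj z ^ 2 + mom Rk z ^ 2 = 1 - 2 * ((z 0).re ^ 2 + (z 0).im ^ 2) := by
  rw [← momL_sq hz]
  simp only [mom_Li, mom_Lj, mom_Lk, mom_Ri, mom_Rj, mom_Rk, om]
  ring

lemma momLi_bound {z : E} (hz : z ∈ unitCone) : -1 ≤ mom Li z ∧ mom Li z ≤ 1 := by
  have := momL_sq hz
  constructor <;> nlinarith [sq_nonneg (mom Lj z), sq_nonneg (mom Lk z), sq_nonneg (z 0).re,
    sq_nonneg (z 0).im, sq_nonneg (mom Li z - 1), sq_nonneg (mom Li z + 1)]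

lemma momRi_bound {z : E} (hz : z ∈ unitCone) : -1 ≤ mom Ri z ∧ mom Ri z ≤ 1 := by
  have := momR_sq hz
  constructor <;> nlinarith [sq_nonneg (mom Rj z), sq_nonneg (mom Rk z), sq_nonneg (z 0).re,
    sq_nonneg (z 0).im, sq_nonneg (mom Ri z - 1), sq_nonneg (mom Ri z + 1)]

lemma re_herm_L (α δ : ℝ) (z : E) : (herm (rot Li α (rot Lj δ z)) z).re =
    ((z 0).re ^ 2 + (z 0).im ^ 2) + Real.cos α * Real.cos δ *
      ((herm z z).re - ((z 0).re ^ 2 + (z 0).im ^ 2)) := by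
  simp only [herm, Fin.sum_univ_five, rot_Li, rot_Lj,
      Matrix.cons_val, Matrix.cons_val_zero, Matrix.cons_val_one, Complex.add_re, Complex.add_im,
      Complex.sub_re, Complex.sub_im, Complex.mul_re, Complex.mul_im, Complex.ofReal_re,
      Complex.ofReal_im, Complex.conj_re, Complex.conj_im]
  ring

lemma re_herm_R (β γ : ℝ) (z : E) : (herm z (rot Rj β (rot Ri γ z))).re =
    ((z 0).re ^ 2 + (z 0).im ^ 2) + Real.cos β * Real.cos γ *
      ((herm z z).re - ((z 0).re ^ 2 + (z 0).im ^ 2)) := by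
  simp only [herm, Fin.sum_univ_five, rot_Ri, rot_Rj,
      Matrix.cons_val, Matrix.cons_val_zero, Matrix.cons_val_one, Complex.add_re, Complex.add_im,
      Complex.sub_re, Complex.sub_im, Complex.mul_re, Complex.mul_im, Complex.ofReal_re,
      Complex.ofReal_im, Complex.conj_re, Complex.conj_im]
  ring

lemma rot_Li_zero (θ : ℝ) (z : E) : rot Li θ z 0 = z 0 := by simp [rot_Li]
lemma rot_Lj_zero (θ : ℝ) (z : E) : rot Lj θ z 0 = z 0 := by simp [rot_Lj]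
lemma rot_Ri_zero (θ : ℝ) (z : E) : rot Ri θ z 0 = z 0 := by simp [rot_Ri]
lemma rot_Rj_zero (θ : ℝ) (z : E) : rot Rj θ z 0 = z 0 := by simp [rot_Rj]

/-- No fixed points off the quadric surface `z 0 = 0`. -/
lemma zero_of_fixed {α β γ δ : ℝ} (hα : Real.cos α < 0) (hβ : 0 < Real.cos β)
    (hγ : 0 < Real.cos γ) (hδ : 0 < Real.cos δ) {z : E} (hz : z ∈ unitCone) {c : ℂ}
    (h : rot Li α (rot Rj β (rot Ri γ (rot Lj δ z))) = c • z) : z 0 = 0 := by
  by_contra h0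
  have hc : c = 1 := by
    have := congrFun h 0
    rw [rot_Li_zero, rot_Rj_zero, rot_Ri_zero, rot_Lj_zero] at this
    simp only [Pi.smul_apply, smul_eq_mul] at this
    exact mul_right_cancel₀ h0 (by rw [← this, one_mul])
  rw [hc, one_smul] at h
  have h1 := re_herm_R β γ (rot Lj δ z)
  rw [← herm_rot Li α, h, re_herm_L, herm_rot, rot_Lj_zero, hz.1] at h1
  have h2 := momL_sq hz
  have h3 : (Real.cos β * Real.cos γ - Real.cos α * Real.cos δ) *
      (1 - ((z 0).re ^ 2 + (z 0).im ^ 2)) = 0 := by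
    simp only [Complex.one_re] at h1
    linarith
  have h4 : 0 < Real.cos β * Real.cos γ - Real.cos α * Real.cos δ := by
    have := mul_pos hβ hγ
    have := mul_neg_of_neg_of_pos hα hδ
    linarith
  have h5 := (mul_eq_zero.mp h3).resolve_left h4.ne'
  nlinarith [sq_nonneg (mom Li z), sq_nonneg (mom Lj z), sq_nonneg (mom Lk z)]

/-- The model isotropic vector attached to a point of the sphere. -/
noncomputable def qv (a1 a2 a3 : ℝ) : E := ![0, 1, Complex.I * a1, Complex.I * a2, Complex.I * a3]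

lemma four_sq {a b c d : ℝ} (h : a ^ 2 + b ^ 2 + c ^ 2 + d ^ 2 = 0) :
    a = 0 ∧ b = 0 ∧ c = 0 ∧ d = 0 := by
  have ha := sq_nonneg a
  have hb := sq_nonneg b
  have hc := sq_nonneg c
  have hd := sq_nonneg d
  refine ⟨pow_eq_zero_iff (two_ne_zero) |>.mp ?_, pow_eq_zero_iff (two_ne_zero) |>.mp ?_,
    pow_eq_zero_iff (two_ne_zero) |>.mp ?_, pow_eq_zero_iff (two_ne_zero) |>.mp ?_⟩ <;> linarith

lemma eq_smul_qv {z : E} (hz : z ∈ unitCone) (h0 : z 0 = 0) (h1 : mom Ri z = mom Li z)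
    (h2 : mom Rj z = mom Lj z) (h3 : mom Rk z = mom Lk z) :
    z = z 1 • qv (mom Li z) (mom Lj z) (mom Lk z) := by
  have hs := momL_sq hz
  obtain ⟨c1, -, -⟩ := cone_real hz
  have e1 : mom Li z = 2 * om (z 1) (z 2) := by
    rw [mom_Ri, mom_Li] at h1; rw [mom_Li]; linarith
  have e2 : mom Lj z = 2 * om (z 1) (z 3) := by
    rw [mom_Rj, mom_Lj] at h2; rw [mom_Lj]; linarith
  have e3 : mom Lk z = 2 * om (z 1) (z 4) := by
    rw [mom_Rk, mom_Lk] at h3; rw [mom_Lk]; linarith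
  rw [e1, e2, e3] at hs ⊢
  rw [h0] at hs c1
  simp only [om, Complex.zero_re, Complex.zero_im] at hs c1 ⊢
  set x1 := (z 1).re with hx1
  set y1 := (z 1).im with hy1
  set x2 := (z 2).re with hx2
  set y2 := (z 2).im with hy2
  set x3 := (z 3).re with hx3
  set y3 := (z 3).im with hy3
  set x4 := (z 4).re with hx4
  set y4 := (z 4).im with hy4
  have key : (x1 * x2 + y1 * y2) ^ 2 + (x1 * x3 + y1 * y3) ^ 2 + (x1 * x4 + y1 * y4) ^ 2
      + (x1 ^ 2 + y1 ^ 2 - 1 / 2) ^ 2 = 0 := by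
    linear_combination (x1 ^ 2 + y1 ^ 2) * c1 - (1 / 4) * hs
  obtain ⟨k1, k2, k3, k4⟩ := four_sq key
  ext j
  fin_cases j
  · simp [qv, h0]
  · simp [qv]
  · apply Complex.ext
    · simp [qv, ← hx1, ← hy1, ← hx2, ← hy2]
      linear_combination (-2 * x2) * k4 + 2 * x1 * k1
    · simp [qv, ← hx1, ← hy1, ← hx2, ← hy2]
      linear_combination (-2 * y2) * k4 + 2 * y1 * k1
  · apply Complex.ext
    · simp [qv, ← hx1, ← hy1, ← hx3, ← hy3]
      linear_combination (-2 * x3) * k4 + 2 * x1 * k2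
    · simp [qv, ← hx1, ← hy1, ← hx3, ← hy3]
      linear_combination (-2 * y3) * k4 + 2 * y1 * k2
  · apply Complex.ext
    · simp [qv, ← hx1, ← hy1, ← hx4, ← hy4]
      linear_combination (-2 * x4) * k4 + 2 * x1 * k3
    · simp [qv, ← hx1, ← hy1, ← hx4, ← hy4]
      linear_combination (-2 * y4) * k4 + 2 * y1 * k3

end Crest.Agent.R205
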