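import Mathlib
import Crest.Agent.R205.Quat

/-!
The Hamiltonian diffeomorphism with three fixed points.
-/

set_option autoImplicit false

namespace Crest.Agent.R205

open Crest.GeometryTopology.Quadric

/-- The Hamiltonian isotopy. -/
noncomputable def LL : HamiltonianConeLift :=
  lift Li Rj Ri Lj comm_Li_Rj comm_Lj_Ri.symm Real.pi 0

/-- The first half of the time-one map. -/
noncomputable def U (z : E) : E := twist Ri Lj 0 1 z

/-- The time-one map. -/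
noncomputable def W (z : E) : E := twist Li Rj Real.pi 1 (U z)

lemma LL_one (z : E) : LL.Ψ (1, z) = W z := lift_one _ _ _ _ _ _ _ _ _

lemma U_eq (z : E) : U z = rot Ri (-Real.arctan (mom Lj z / 4))
    (rot Lj ((1 - mom Ri z) * kap (mom Lj z)) z) := by
  simp [U, twist, angA, angB]

lemma W_eq (z : E) : W z = rot Li (Real.pi - Real.arctan (mom Rj (U z) / 4))
    (rot Rj ((1 - mom Li (U z)) * kap (mom Rj (U z))) (U z)) := by
  simp [W, twist, angA, angB]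

lemma U_mem {z : E} (hz : z ∈ unitCone) : U z ∈ unitCone := twist_mem_cone _ _ _ _ hz

lemma W_mem {z : E} (hz : z ∈ unitCone) : W z ∈ unitCone := twist_mem_cone _ _ _ _ (U_mem hz)

lemma W_zero (z : E) : W z 0 = z 0 := by
  rw [W_eq, rot_Li_zero, rot_Rj_zero, U_eq, rot_Ri_zero, rot_Lj_zero]

lemma cos_ang_pos {x : ℝ} (y : ℝ) (h : -1 ≤ x ∧ x ≤ 1) : 0 < Real.cos ((1 - x) * kap y) := by
  have := cos_ge_of_le_half (ang_nonneg y h.2) (ang_le y h.1)
  linarith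

lemma cos_pi_sub_neg (y : ℝ) : Real.cos (Real.pi - Real.arctan y) < 0 := by
  rw [Real.cos_pi_sub]
  have := Real.cos_arctan_pos y
  linarith

lemma cos_neg_pos (y : ℝ) : 0 < Real.cos (-Real.arctan y) := by
  rw [Real.cos_neg]
  exact Real.cos_arctan_pos y

lemma tan_pi_sub' (y : ℝ) : Real.tan (Real.pi - Real.arctan y) = -y := by
  rw [Real.tan_pi_sub, Real.tan_arctan]

lemma tan_neg' (y : ℝ) : Real.tan (-Real.arctan y) = -y := by
  rw [Real.tan_neg, Real.tan_arctan]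

lemma cayley {θ x y x' y' : ℝ} (hc : Real.cos θ ≠ 0)
    (hx : x' = (Real.cos θ ^ 2 - Real.sin θ ^ 2) * x + 2 * Real.cos θ * Real.sin θ * y)
    (hy : y' = (Real.cos θ ^ 2 - Real.sin θ ^ 2) * y - 2 * Real.cos θ * Real.sin θ * x) :
    y - y' = Real.tan θ * (x + x') ∧ x' - x = Real.tan θ * (y + y') := by
  have h := Real.sin_sq_add_cos_sq θ
  rw [Real.tan_eq_sin_div_cos, hx, hy]
  constructor
  · field_simp
    linear_combination (- Real.cos θ * y + Real.sin θ * x) * h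
  · field_simp
    linear_combination (Real.cos θ * x + Real.sin θ * y) * h

lemma cayley_conv {θ x y : ℝ} (hc : Real.cos θ ≠ 0) (h1 : y = Real.tan θ * x) :
    (Real.cos θ ^ 2 - Real.sin θ ^ 2) * x + 2 * Real.cos θ * Real.sin θ * y = x ∧
    (Real.cos θ ^ 2 - Real.sin θ ^ 2) * y - 2 * Real.cos θ * Real.sin θ * x = -y := by
  have h := Real.sin_sq_add_cos_sq θ
  rw [h1, Real.tan_eq_sin_div_cos]
  constructor
  · field_simp
    linear_combination x * h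
  · field_simp
    linear_combination (- Real.sin θ * x) * h

lemma norm_eq_one_of_smul_mem {z : E} {c : ℂ} (hz : z ∈ unitCone) (hc : c • z ∈ unitCone) :
    ‖c‖ = 1 := by
  have h := hc.1
  rw [herm_smul_left, herm_smul_right, hz.1, mul_one, Complex.conj_mul'] at h
  have h2 : ‖c‖ ^ 2 = 1 := by exact_mod_cast h
  have h3 := norm_nonneg c
  nlinarith

lemma U_a1 (z : E) : mom Li (U z) = mom Li (rot Lj ((1 - mom Ri z) * kap (mom Lj z)) z) := by
  rw [U_eq, mom_rot comm_Li_Ri.symm]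
lemma U_a2 (z : E) : mom Lj (U z) = mom Lj z := mom_twist_right comm_Lj_Ri.symm _ _ _
lemma U_a3 (z : E) : mom Lk (U z) = mom Lk (rot Lj ((1 - mom Ri z) * kap (mom Lj z)) z) := by
  rw [U_eq, mom_rot comm_Lk_Ri.symm]
lemma U_b1 (z : E) : mom Ri (U z) = mom Ri z := mom_twist_left comm_Lj_Ri.symm _ _ _
lemma W_a1 (z : E) : mom Li (W z) = mom Li (U z) := mom_twist_left comm_Li_Rj _ _ _
lemma W_b2 (z : E) : mom Rj (W z) = mom Rj (U z) := mom_twist_right comm_Li_Rj _ _ _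

/-- The real equations satisfied at a fixed point, and their solutions. -/
lemma classify2 {a1 a2 a3 a3' b1 b2 b3 b3' : ℝ} (ha : a1 ^ 2 + a2 ^ 2 + a3 ^ 2 = 1)
    (hb : b1 ^ 2 + b2 ^ 2 + b3 ^ 2 = 1)
    (e1 : a3 - a3' = Real.tan ((1 - b1) * kap a2) * (a1 + a1))
    (e2 : a1 - a1 = Real.tan ((1 - b1) * kap a2) * (a3 + a3'))
    (e3 : -a3' - -a3 = -(b2 / 4) * (a2 + a2))
    (e4 : a2 - a2 = -(b2 / 4) * (-a3' + -a3))
    (f1 : b3 - b3' = -(a2 / 4) * (b2 + b2))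
    (f2 : b2 - b2 = -(a2 / 4) * (b3 + b3'))
    (f3 : -b3' - -b3 = Real.tan ((1 - a1) * kap b2) * (b1 + b1))
    (f4 : b1 - b1 = Real.tan ((1 - a1) * kap b2) * (-b3' + -b3)) :
    (b1 = a1 ∧ b2 = a2 ∧ b3 = a3) ∧
      ((a1 = 1 ∧ a2 = 0 ∧ a3 = 0) ∨ (Sys (-a1) |a2| ∧ a3 = -(a2 ^ 2 / 4))) := by
  obtain ⟨ha1, ha2⟩ := abs_le_one_of_sum_sq ha
  obtain ⟨hb1, hb2⟩ := abs_le_one_of_sum_sq hb
  have fin : a1 = 1 → b1 = 1 → (b1 = a1 ∧ b2 = a2 ∧ b3 = a3) ∧
      ((a1 = 1 ∧ a2 = 0 ∧ a3 = 0) ∨ (Sys (-a1) |a2| ∧ a3 = -(a2 ^ 2 / 4))) := by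
    intro h1 h2
    rw [h1] at ha
    rw [h2] at hb
    have p1 : a2 = 0 := by nlinarith [sq_nonneg a2, sq_nonneg a3]
    have p2 : a3 = 0 := by nlinarith [sq_nonneg a2, sq_nonneg a3]
    have p3 : b2 = 0 := by nlinarith [sq_nonneg b2, sq_nonneg b3]
    have p4 : b3 = 0 := by nlinarith [sq_nonneg b2, sq_nonneg b3]
    exact ⟨⟨by rw [h1, h2], by rw [p1, p3], by rw [p2, p4]⟩, Or.inl ⟨h1, p1, p2⟩⟩
  by_cases hA : a3 + a3' = 0
  · by_cases hB : b3 + b3' = 0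
    · have q1 : a3 = -(a2 * b2 / 4) := by linarith
      have q2 : b3 = -(a2 * b2 / 4) := by linarith
      have r1 : a1 * Real.tan ((1 - b1) * kap a2) = -(a2 * b2 / 4) := by linarith
      have r2 : b1 * Real.tan ((1 - a1) * kap b2) = -(a2 * b2 / 4) := by linarith
      have s1 : a1 ^ 2 + a2 ^ 2 + (a2 * b2 / 4) ^ 2 = 1 := by rw [q1] at ha; linarith
      have s2 : b1 ^ 2 + b2 ^ 2 + (a2 * b2 / 4) ^ 2 = 1 := by rw [q2] at hb; linarith
      rcases classify s1 s2 r1 r2 with ⟨h1, -, h2, -⟩ | ⟨h1, h2, h3⟩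
      · exact fin h1 h2
      · refine ⟨⟨h1, h2, by rw [q1, q2]⟩, Or.inr ⟨h3, ?_⟩⟩
        rw [q1, h2]; ring
    · have t1 : Real.tan ((1 - a1) * kap b2) = 0 := by
        have : Real.tan ((1 - a1) * kap b2) * (b3 + b3') = 0 := by linarith
        exact (mul_eq_zero.mp this).resolve_right hB
      have t2 : a2 = 0 := by
        have : a2 * (b3 + b3') = 0 := by linarith
        exact (mul_eq_zero.mp this).resolve_right hB
      have h1 := eq_one_of_tan_eq_zero ha1 ha2 t1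
      have t3 : Real.tan ((1 - b1) * kap a2) = 0 := by
        rw [h1] at e1
        rw [t2] at e3
        linarith
      exact fin h1 (eq_one_of_tan_eq_zero hb1 hb2 t3)
  · have t1 : Real.tan ((1 - b1) * kap a2) = 0 := by
      have : Real.tan ((1 - b1) * kap a2) * (a3 + a3') = 0 := by linarith
      exact (mul_eq_zero.mp this).resolve_right hA
    have t2 : b2 = 0 := by
      have : b2 * (a3 + a3') = 0 := by linarith
      exact (mul_eq_zero.mp this).resolve_right hA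
    have h1 := eq_one_of_tan_eq_zero hb1 hb2 t1
    have t3 : Real.tan ((1 - a1) * kap b2) = 0 := by
      rw [h1] at f3
      rw [t2] at f1
      linarith
    exact fin (eq_one_of_tan_eq_zero ha1 ha2 t3) h1

/-- Necessary conditions for a fixed point. -/
lemma fixed_nec {z : E} (hz : z ∈ unitCone) {c : ℂ} (h : W z = c • z) :
    z = z 1 • qv (mom Li z) (mom Lj z) (mom Lk z) ∧
      ((mom Li z = 1 ∧ mom Lj z = 0 ∧ mom Lk z = 0) ∨
        (Sys (-mom Li z) |mom Lj z| ∧ mom Lk z = -(mom Lj z ^ 2 / 4))) := by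
  have hc : ‖c‖ = 1 := norm_eq_one_of_smul_mem hz (h ▸ W_mem hz)
  have hm : ∀ S, mom S (W z) = mom S z := fun S => by rw [h, mom_smul S hc]
  have ua1 : mom Li (U z) = mom Li z := by rw [← W_a1, hm]
  have ub2 : mom Rj (U z) = mom Rj z := by rw [← W_b2, hm]
  have cβ := cos_ang_pos (mom Rj z) (momLi_bound hz)
  have cδ := cos_ang_pos (mom Lj z) (momRi_bound hz)
  have cα := cos_pi_sub_neg (mom Rj z / 4)
  have cγ := cos_neg_pos (mom Lj z / 4)
  have hW := W_eq z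
  rw [ua1, ub2] at hW
  have h0 : z 0 = 0 := by
    refine zero_of_fixed cα cβ cγ cδ hz (c := c) ?_
    rw [← U_eq, ← hW, h]
  have ha := momL_sq hz
  have hb := momR_sq hz
  rw [h0] at ha hb
  simp only [Complex.zero_re, Complex.zero_im, ne_eq, OfNat.ofNat_ne_zero, not_false_eq_true,
    zero_pow, add_zero, mul_zero, sub_zero] at ha hb
  obtain ⟨e1, e2⟩ := cayley (x := mom Li z) (y := mom Lk z) (x' := mom Li z)
    (y' := mom Lk (U z)) cδ.ne' (by rw [← mom_Li_rot_Lj, ← U_a1, ua1])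
    (by rw [← mom_Lk_rot_Lj, ← U_a3])
  obtain ⟨e3, e4⟩ := cayley (x := mom Lj z) (y := -mom Lk (U z)) (x' := mom Lj z)
    (y' := -mom Lk z) cα.ne
    (by
      have := hm Lj
      rw [hW, mom_Lj_rot_Li, mom_rot comm_Lj_Rj.symm, mom_rot comm_Lk_Rj.symm, U_a2] at this
      linarith)
    (by
      have := hm Lk
      rw [hW, mom_Lk_rot_Li, mom_rot comm_Lj_Rj.symm, mom_rot comm_Lk_Rj.symm, U_a2] at this
      linarith)
  obtain ⟨f1, f2⟩ := cayley (x := mom Rj z) (y := mom Rk z) (x' := mom Rj z)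
    (y' := mom Rk (U z)) cγ.ne'
    (by
      have := ub2
      rw [U_eq, mom_Rj_rot_Ri, mom_rot comm_Lj_Rj, mom_rot comm_Lj_Rk] at this
      linarith)
    (by rw [U_eq, mom_Rk_rot_Ri, mom_rot comm_Lj_Rj, mom_rot comm_Lj_Rk])
  obtain ⟨f3, f4⟩ := cayley (x := mom Ri z) (y := -mom Rk (U z)) (x' := mom Ri z)
    (y' := -mom Rk z) cβ.ne'
    (by
      have := hm Ri
      rw [hW, mom_rot comm_Li_Ri, mom_Ri_rot_Rj, U_b1] at this
      linarith)
    (by
      have := hm Rk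
      rw [hW, mom_rot comm_Li_Rk, mom_Rk_rot_Rj, U_b1] at this
      linarith)
  rw [tan_pi_sub'] at e3 e4
  rw [tan_neg'] at f1 f2
  obtain ⟨⟨g1, g2, g3⟩, g4⟩ := classify2 ha hb e1 e2 e3 e4 f1 f2 f3 f4
  exact ⟨eq_smul_qv hz h0 g1 g2 g3, g4⟩

/-- The normalised model vector. -/
noncomputable def pt (a1 a2 a3 : ℝ) : E := ((√2)⁻¹ : ℝ) • qv a1 a2 a3

lemma inv_sqrt_two_sq : ((√2)⁻¹ : ℝ) * (√2)⁻¹ = 1 / 2 := by
  rw [← mul_inv, Real.mul_self_sqrt (by norm_num)]; norm_num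

lemma pt_mem {a1 a2 a3 : ℝ} (h : a1 ^ 2 + a2 ^ 2 + a3 ^ 2 = 1) : pt a1 a2 a3 ∈ unitCone := by
  have h2 : (((√2)⁻¹ : ℝ) : ℂ) * ((√2)⁻¹ : ℝ) = 1 / 2 := by
    rw [← Complex.ofReal_mul, inv_sqrt_two_sq]; simp
  have h3 : (a1 : ℂ) ^ 2 + a2 ^ 2 + a3 ^ 2 = 1 := by exact_mod_cast h
  rw [mem_cone_iff, pt, herm_rsmul_left, herm_rsmul_right, bil_rsmul_left, bil_rsmul_right,
    ← mul_assoc, ← mul_assoc, h2]
  have e1 : herm (qv a1 a2 a3) (qv a1 a2 a3) = 2 := by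
    simp [herm, qv, Fin.sum_univ_five]
    linear_combination h3 - (a1 ^ 2 + a2 ^ 2 + a3 ^ 2) * Complex.I_mul_I
  have e2 : bil (qv a1 a2 a3) (qv a1 a2 a3) = 0 := by
    simp [bil, qv, Fin.sum_univ_five]
    linear_combination -h3 + (a1 ^ 2 + a2 ^ 2 + a3 ^ 2) * Complex.I_mul_I
  rw [e1, e2]
  norm_num

lemma mom_rsmul (S : Skew) (r : ℝ) (z : E) : mom S (r • z) = r * r * mom S z := by
  simp only [mom, A_rsmul, herm_rsmul_left, herm_rsmul_right]
  simp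
  ring

lemma mom_pt (a1 a2 a3 : ℝ) :
    mom Li (pt a1 a2 a3) = a1 ∧ mom Lj (pt a1 a2 a3) = a2 ∧ mom Lk (pt a1 a2 a3) = a3 ∧
    mom Ri (pt a1 a2 a3) = a1 ∧ mom Rj (pt a1 a2 a3) = a2 ∧ mom Rk (pt a1 a2 a3) = a3 := by
  simp only [pt, mom_rsmul, inv_sqrt_two_sq]
  simp [mom_Li, mom_Lj, mom_Lk, mom_Ri, mom_Rj, mom_Rk, om, qv]

lemma pt_zero (a1 a2 a3 : ℝ) : pt a1 a2 a3 0 = 0 := by simp [pt, qv]

/-- Sufficient conditions for a fixed point. -/
lemma fixed_suf {a1 a2 a3 : ℝ} (h : a1 ^ 2 + a2 ^ 2 + a3 ^ 2 = 1)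
    (e1 : a3 = Real.tan ((1 - a1) * kap a2) * a1) (e2 : a3 = -(a2 / 4) * a2) :
    W (pt a1 a2 a3) = W (pt a1 a2 a3) 1 • qv a1 a2 a3 := by
  have hz := pt_mem h
  obtain ⟨m1, m2, m3, m4, m5, m6⟩ := mom_pt a1 a2 a3
  set z := pt a1 a2 a3
  have cδ := cos_ang_pos a2 (abs_le_one_of_sum_sq h)
  have cα := cos_pi_sub_neg (a2 / 4)
  have cγ := cos_neg_pos (a2 / 4)
  obtain ⟨p1, p2⟩ := cayley_conv cδ.ne' e1
  obtain ⟨p3, p4⟩ := cayley_conv (x := a2) (y := a3) cα.ne (by rw [tan_pi_sub']; exact e2)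
  obtain ⟨p5, p6⟩ := cayley_conv (x := a2) (y := a3) cγ.ne' (by rw [tan_neg']; exact e2)
  have ua1 : mom Li (U z) = a1 := by rw [U_a1, mom_Li_rot_Lj, m1, m2, m3, m4, p1]
  have ua2 : mom Lj (U z) = a2 := by rw [U_a2, m2]
  have ua3 : mom Lk (U z) = -a3 := by rw [U_a3, mom_Lk_rot_Lj, m1, m2, m3, m4, p2]
  have ub1 : mom Ri (U z) = a1 := by rw [U_b1, m4]
  have ub2 : mom Rj (U z) = a2 := by
    rw [U_eq, mom_Rj_rot_Ri, mom_rot comm_Lj_Rj, mom_rot comm_Lj_Rk, m2, m5, m6, p5]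
  have ub3 : mom Rk (U z) = -a3 := by
    rw [U_eq, mom_Rk_rot_Ri, mom_rot comm_Lj_Rj, mom_rot comm_Lj_Rk, m2, m5, m6, p6]
  have hW := W_eq z
  rw [ua1, ub2] at hW
  have wa1 : mom Li (W z) = a1 := by rw [W_a1, ua1]
  have wa2 : mom Lj (W z) = a2 := by
    rw [hW, mom_Lj_rot_Li, mom_rot comm_Lj_Rj.symm, mom_rot comm_Lk_Rj.symm, ua2, ua3]
    linarith
  have wa3 : mom Lk (W z) = a3 := by
    rw [hW, mom_Lk_rot_Li, mom_rot comm_Lj_Rj.symm, mom_rot comm_Lk_Rj.symm, ua2, ua3]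
    linarith
  have wb1 : mom Ri (W z) = a1 := by
    rw [hW, mom_rot comm_Li_Ri, mom_Ri_rot_Rj, ub1, ub3]
    linarith
  have wb2 : mom Rj (W z) = a2 := by rw [W_b2, ub2]
  have wb3 : mom Rk (W z) = a3 := by
    rw [hW, mom_rot comm_Li_Rk, mom_Rk_rot_Rj, ub1, ub3]
    linarith
  have := eq_smul_qv (W_mem hz) (by rw [W_zero]; exact pt_zero _ _ _) (by rw [wb1, wa1]) (by rw [wb2, wa2])
    (by rw [wb3, wa3])
  rwa [wa1, wa2, wa3] at this

/-- The line attached to a point of the sphere. -/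
noncomputable def ln (a1 a2 a3 : ℝ) : Submodule ℂ E := Submodule.span ℂ {qv a1 a2 a3}

lemma ln_inj {a1 a2 a3 b1 b2 b3 : ℝ} (h : ln a1 a2 a3 = ln b1 b2 b3) : a1 = b1 ∧ a2 = b2 := by
  have h1 : qv a1 a2 a3 ∈ ln b1 b2 b3 := h ▸ Submodule.mem_span_singleton_self _
  obtain ⟨c, hc⟩ := Submodule.mem_span_singleton.mp h1
  have c1 : c = 1 := by simpa [qv] using congrFun hc 1
  rw [c1, one_smul] at hc
  have c2 := congrFun hc 2
  have c3 := congrFun hc 3
  simp [qv] at c2 c3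
  exact ⟨c2.symm, c3.symm⟩

lemma span_pt (a1 a2 a3 : ℝ) : Submodule.span ℂ {pt a1 a2 a3} = ln a1 a2 a3 := by
  have : pt a1 a2 a3 = (((√2)⁻¹ : ℝ) : ℂ) • qv a1 a2 a3 := by
    rw [pt, Complex.coe_smul]
  rw [this, ln]
  apply Submodule.span_singleton_smul_eq
  simp

lemma ln_mem {a1 a2 a3 : ℝ} (h : a1 ^ 2 + a2 ^ 2 + a3 ^ 2 = 1)
    (e1 : a3 = Real.tan ((1 - a1) * kap a2) * a1) (e2 : a3 = -(a2 / 4) * a2) :
    ln a1 a2 a3 ∈ fixedLines LL := by
  refine ⟨pt a1 a2 a3, pt_mem h, (span_pt _ _ _).symm, ?_⟩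
  rw [LL_one, fixed_suf h e1 e2]
  exact Submodule.smul_mem _ _ (Submodule.mem_span_singleton_self _)

theorem fixedLines_eq {m s : ℝ} (h : Sys m s) :
    fixedLines LL = {ln 1 0 0, ln (-m) s (-(s ^ 2 / 4)), ln (-m) (-s) (-(s ^ 2 / 4))} := by
  ext ℓ
  constructor
  · rintro ⟨z, hz, rfl, hℓ⟩
    rw [LL_one] at hℓ
    obtain ⟨c, hc⟩ := Submodule.mem_span_singleton.mp hℓ
    obtain ⟨h1, h2⟩ := fixed_nec hz hc.symm
    have hz1 : z 1 ≠ 0 := by
      intro h0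
      rw [h0, zero_smul] at h1
      have := hz.1
      rw [h1] at this
      simp [herm] at this
    have h3 : Submodule.span ℂ {z} = ln (mom Li z) (mom Lj z) (mom Lk z) := by
      conv_lhs => rw [h1]
      exact Submodule.span_singleton_smul_eq (IsUnit.mk0 _ hz1) _
    rw [h3]
    rcases h2 with ⟨k1, k2, k3⟩ | ⟨k1, k2⟩
    · left; rw [k1, k2, k3]
    · right
      obtain ⟨k3, k4⟩ := sys_unique k1 h
      have k5 : mom Li z = -m := by linarith
      rw [k2, k5, ← sq_abs (mom Lj z), k4]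
      rcases abs_eq (le_of_lt h.2.2.1) |>.mp k4 with k6 | k6
      · left; rw [k6]
      · right; rw [k6]; rfl
  · obtain ⟨hm, hm1, hs, e1, e2⟩ := h
    have e3 : 1 - -m = 1 + m := by ring
    rintro (rfl | rfl | rfl)
    · exact ln_mem (by norm_num) (by simp) (by simp)
    · exact ln_mem (by linarith) (by rw [e3]; linarith) (by ring)
    · refine ln_mem (by linarith) ?_ (by ring)
      rw [e3, kap_eq_of_sq (neg_sq s)]
      linarith

theorem ncard_eq : (fixedLines LL).ncard = 3 := by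
  obtain ⟨m, s, h⟩ := sys_exists
  rw [fixedLines_eq h, Set.ncard_eq_three]
  obtain ⟨hm, hm1, hs, e1, e2⟩ := h
  refine ⟨_, _, _, ?_, ?_, ?_, rfl⟩
  · intro h; have := (ln_inj h).1; linarith
  · intro h; have := (ln_inj h).1; linarith
  · intro h; have := (ln_inj h).2; linarith

lemma rot_Li_pi {z : E} (h : z 0 = 0) : rot Li Real.pi z = (-1 : ℂ) • z := by
  ext j; fin_cases j <;> simp [rot_Li, h]

theorem degenerate : HasDegenerateFixedPoint LL := by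
  have hz : pt 1 0 0 ∈ unitCone := pt_mem (by norm_num)
  obtain ⟨m1, m2, m3, m4, m5, m6⟩ := mom_pt 1 0 0
  set z := pt 1 0 0 with hzdef
  have hz0 : z 0 = 0 := pt_zero _ _ _
  have key : ∀ s : ℝ, W (rot Lj s z) = (-1 : ℂ) •
      rot Rj ((1 - (Real.cos s ^ 2 - Real.sin s ^ 2)) * kap 0) (rot Lj s z) := by
    intro s
    have hU : U (rot Lj s z) = rot Lj s z := by
      rw [U_eq, mom_rot (comm_self Lj), mom_rot comm_Lj_Ri, m2, m4]
      simp [rot_zero]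
    rw [W_eq, hU, mom_rot comm_Lj_Rj, mom_Li_rot_Lj, m1, m3, m5]
    simp only [zero_div, Real.arctan_zero, sub_zero, mul_one, mul_zero, add_zero]
    apply rot_Li_pi
    rw [rot_Rj_zero, rot_Lj_zero, hz0]
  have hγ : HasDerivAt (fun s : ℝ => rot Lj s z) (Lj.A z) 0 := by
    have := hasDerivAt_rot Lj (hasDerivAt_id (0 : ℝ)) (hasDerivAt_const (0 : ℝ) z)
    simpa [rot_zero] using this
  have hr : (√2 : ℝ) ≠ 0 := by positivity
  refine ⟨z, hz, -1, ?_, Lj.A z, ?_, ?_, 0, ?_⟩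
  · have := key 0
    rw [LL_one]
    simpa [rot_zero] using this
  · constructor
    · simp [herm, Fin.sum_univ_five, Lj_A, hzdef, pt, qv]
    · simp [Fin.sum_univ_five, Lj_A, hzdef, pt, qv]
  · intro r h
    have := congrFun h 3
    simp [Lj_A, hzdef, pt, qv] at this
  · have hd : DifferentiableAt ℝ (fun x : E => LL.Ψ (1, x)) z :=
      ((LL.smooth_Ψ.comp (contDiff_const.prodMk contDiff_id)).differentiable (by simp)) z
    refine fderiv_apply_of_line hd (γ := fun s => rot Lj s z) (rot_zero _ _) hγ ?_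
    simp only [LL_one, key]
    have hθ : HasDerivAt (fun s : ℝ => (1 - (Real.cos s ^ 2 - Real.sin s ^ 2)) * kap 0) 0 0 := by
      have := ((((Real.hasDerivAt_cos 0).pow 2).sub ((Real.hasDerivAt_sin 0).pow 2)).const_sub
        1).mul_const (kap 0)
      refine this.congr_deriv ?_
      simp
    have := (hasDerivAt_rot Rj hθ hγ).const_smul (-1 : ℂ)
    refine this.congr_deriv ?_
    simp [rot_zero]

end Crest.Agent.R205
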